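import Vale.Agent.Lib.P310.Defs

/-!
Statement-level definitions of the reduction from CNF.

* `thick`, `rung`, `frEdges`, `twist`: the base graph (two thick chains joined by rungs).
* `Satisfiable`, `RungLabel`, `Probe`, `frLabel`, `srcGraph`, `tgtGraph`: the reduction from CNF.
-/

namespace Vale.Agent.Lib.P310

open Finset

section Thick

variable {ℓ m : ℕ} {Pr : Type} [Fintype Pr] [DecidableEq Pr]

/-- Base vertices: (side, column, lane). -/
abbrev BaseV (ℓ m : ℕ) : Type := Bool × Fin ℓ × Fin (m + 1)

/-- The base graph: on each side, columns are cliques and consecutive columns are joined lane by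
lane; for each column there is one rung joining lane 0 of the two sides. -/
def thick (ℓ m : ℕ) : SimpleGraph (BaseV ℓ m) where
  Adj a b :=
    (a.1 = b.1 ∧ a.2.1 = b.2.1 ∧ a.2.2 ≠ b.2.2) ∨
      (a.1 = b.1 ∧ a.2.2 = b.2.2 ∧ (a.2.1.val + 1 = b.2.1.val ∨ b.2.1.val + 1 = a.2.1.val)) ∨
      (a.1 ≠ b.1 ∧ a.2.1 = b.2.1 ∧ a.2.2 = 0 ∧ b.2.2 = 0)
  symm := ⟨by
    intro a b h
    rcases h with ⟨h1, h2, h3⟩ | ⟨h1, h2, h3⟩ | ⟨h1, h2, h3, h4⟩
    · exact Or.inl ⟨h1.symm, h2.symm, h3.symm⟩
    · exact Or.inr (Or.inl ⟨h1.symm, h2.symm, h3.symm⟩)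
    · exact Or.inr (Or.inr ⟨h1.symm, h2.symm, h4, h3⟩)⟩
  loopless := ⟨by
    intro a h
    rcases h with ⟨-, -, h3⟩ | ⟨-, -, h3 | h3⟩ | ⟨h1, -⟩
    · exact h3 rfl
    · omega
    · omega
    · exact h1 rfl⟩

instance (ℓ m : ℕ) : DecidableRel (thick ℓ m).Adj := fun a b => by
  unfold thick
  simp only
  infer_instance

/-- The rung of a column as an edge of the base graph. -/
def rung (m : ℕ) (c : Fin ℓ) : Sym2 (BaseV ℓ m) := s((false, c, 0), (true, c, 0))

/-- The edge set of a probe, given the set of columns whose rungs it reads. -/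
def frEdges (m : ℕ) (FrC : Pr → Finset (Fin ℓ)) (p : Pr) : Finset (Sym2 (BaseV ℓ m)) :=
  (FrC p).image (rung m)

/-- The twist: parity 1 exactly at the vertex in column 0, lane 0 of side `false`. -/
def twist (ℓ m : ℕ) : BaseV ℓ m → ZMod 2 :=
  fun v => if v.1 = false ∧ v.2.1.val = 0 ∧ v.2.2 = 0 then 1 else 0

end Thick

section Cnf

variable {Var ι : Type} [Fintype Var] [DecidableEq Var] [Fintype ι] [DecidableEq ι] {k : ℕ}

/-- A CNF formula is given by its clauses, each a finite set of literals (variable, value). It is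
satisfiable when some assignment makes a literal of each clause true. -/
def Satisfiable (cl : ι → Finset (Var × Bool)) : Prop :=
  ∃ a : Var → Bool, ∀ i, ∃ l ∈ cl i, a l.1 = l.2

/-- Labels of the rungs: four for each clause in each of two copies, and `2 * k + 4` for each block
in each of two copies. -/
abbrev RungLabel (ι : Type) (k : ℕ) : Type :=
  (ι × Bool × Fin 4) ⊕ (Fin k × Bool × Fin (2 * k + 4))

/-- Probes: a block, a copy and a truth assignment of the variables of the block. -/
abbrev Probe (bl : Var → Fin k) : Type := Σ i : Fin k × Bool, ({v // bl v = i.1} → Bool)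

/-- The rung labels read by a probe: those of the clauses of its copy with a literal made true by
its assignment, and those of its own block and copy. -/
noncomputable def frLabel (cl : ι → Finset (Var × Bool)) (bl : Var → Fin k) (p : Probe bl) :
    Finset (RungLabel ι k) :=
  open Classical in
  Finset.disjSum
    (univ.filter fun q : ι × Bool × Fin 4 =>
      q.2.1 = p.1.2 ∧ ∃ l ∈ cl q.1, ∃ h : bl l.1 = p.1.1, p.2 ⟨l.1, h⟩ = l.2)
    (univ.filter fun q : Fin k × Bool × Fin (2 * k + 4) => q.1 = p.1.1 ∧ q.2.1 = p.1.2)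

/-- The columns read by a probe: the rung labels numbered by an arbitrary bijection. -/
noncomputable def frCols (cl : ι → Finset (Var × Bool)) (bl : Var → Fin k) (p : Probe bl) :
    Finset (Fin (Fintype.card (RungLabel ι k))) :=
  (frLabel cl bl p).map (Fintype.equivFin (RungLabel ι k)).toEmbedding

/-- The untwisted graph of a CNF formula with a partition of its variables in `k` blocks. -/
noncomputable def srcGraph (cl : ι → Finset (Var × Bool)) (bl : Var → Fin k) (m : ℕ) :
    SimpleGraph (VT (thick (Fintype.card (RungLabel ι k)) m) (frEdges m (frCols cl bl))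
      (fun _ => 0)) :=
  vtGraph _ _ _

/-- The twisted graph of a CNF formula with a partition of its variables in `k` blocks. -/
noncomputable def tgtGraph (cl : ι → Finset (Var × Bool)) (bl : Var → Fin k) (m : ℕ) :
    SimpleGraph (VT (thick (Fintype.card (RungLabel ι k)) m) (frEdges m (frCols cl bl))
      (twist (Fintype.card (RungLabel ι k)) m)) :=
  vtGraph _ _ _

/-- The size bound of the reduction: for `c` clauses, `k` blocks, `m + 1` lanes and blocks with at
most `b` variables each meeting at most `b` clauses. -/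
def sizeBound (c k m b : ℕ) : ℕ :=
  (2 * (8 * c + 2 * k * (2 * k + 4)) * (m + 1) * 2 ^ (m + 4) + 2 * k * 2 ^ b * 2 ^ (4 * b + 2 * k + 4)) *
    ((2 * (8 * c + 2 * k * (2 * k + 4)) * (m + 1) + 2 * k * 2 ^ b) *
      (2 * (8 * c + 2 * k * (2 * k + 4)) * (m + 1) * 2 ^ (m + 4) +
        2 * k * 2 ^ b * 2 ^ (4 * b + 2 * k + 4) + 2) + 1)

end Cnf

end Vale.Agent.Lib.P310
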