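import Vale.Agent.Lib.P310.Dup
import Vale.Agent.Lib.P310.CnfDefs

set_option linter.unusedSectionVars false

namespace Vale.Agent.Lib.P310

open Finset

section Generic

variable {BV Pr : Type} [Fintype BV] [DecidableEq BV] [Fintype Pr] [DecidableEq Pr]
variable (B : SimpleGraph BV) [DecidableRel B.Adj] (Fr : Pr → Finset (Sym2 BV))

/-- The base graph minus the blocked vertices and the frozen edges of a class set. -/
def freeG (X : Finset (BV ⊕ Pr)) : SimpleGraph BV where
  Adj a b := B.Adj a b ∧ Sum.inl a ∉ X ∧ Sum.inl b ∉ X ∧ ∀ p, Sum.inr p ∈ X → s(a, b) ∉ Fr p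
  symm := ⟨by
    rintro a b ⟨h1, h2, h3, h4⟩
    refine ⟨h1.symm, h3, h2, fun p hp => ?_⟩
    rw [Sym2.eq_swap]
    exact h4 p hp⟩
  loopless := ⟨fun a h => B.loopless.irrefl a h.1⟩

lemma freeG_mono {X X' : Finset (BV ⊕ Pr)} (h : X' ⊆ X) : freeG B Fr X ≤ freeG B Fr X' := by
  intro a b hab
  exact ⟨hab.1, fun h' => hab.2.1 (h h'), fun h' => hab.2.2.1 (h h'),
    fun p hp => hab.2.2.2 p (h hp)⟩

lemma bd_single {a b : BV} (hab : B.Adj a b) (v : BV) :
    bd B (fun e => if e = s(a, b) then 1 else 0) v =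
      (if v = a then 1 else 0) + (if v = b then 1 else 0) := by
  unfold bd
  have hne : a ≠ b := hab.ne
  by_cases hva : v = a
  · subst hva
    rw [Finset.sum_eq_single b]
    · simp [hne]
    · intro u _ hu
      beta_reduce
      rw [if_neg]
      intro h
      exact hu (Sym2.congr_right.mp h)
    · intro h
      exact absurd ((SimpleGraph.mem_neighborFinset B v b).mpr hab) h
  · by_cases hvb : v = b
    · subst hvb
      rw [Finset.sum_eq_single a]
      · have : s(v, a) = s(a, v) := Sym2.eq_swap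
        simp [hne.symm, this]
      · intro u _ hu
        beta_reduce
        rw [if_neg]
        intro h
        rw [Sym2.eq_swap (a := a)] at h
        exact hu (Sym2.congr_right.mp h)
      · intro h
        exact absurd ((SimpleGraph.mem_neighborFinset B v a).mpr hab.symm) h
    · rw [Finset.sum_eq_zero]
      · simp [hva, hvb]
      · intro u _
        beta_reduce
        rw [if_neg]
        intro h
        rcases Sym2.eq_iff.mp h with h | h
        · exact hva h.1
        · exact hvb h.1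

/-- A path in the free graph gives an edge function with the two ends as boundary that vanishes on
the edges of all classes of `X`. -/
lemma exists_flip {X : Finset (BV ⊕ Pr)} {w w' : BV} (h : (freeG B Fr X).Reachable w w') :
    ∃ g : Sym2 BV → ZMod 2,
      (∀ v, bd B g v = (if v = w then 1 else 0) + (if v = w' then 1 else 0)) ∧
      ∀ c' ∈ X, ∀ e ∈ edgesOf B Fr c', g e = 0 := by
  obtain ⟨p⟩ := h
  induction p with
  | nil =>
    refine ⟨fun _ => 0, fun v => ?_, fun _ _ _ _ => rfl⟩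
    unfold bd
    simp only [Finset.sum_const_zero]
    exact (zmod2_add_self _).symm
  | @cons a b c hab _ ih =>
    obtain ⟨g, hg1, hg2⟩ := ih
    refine ⟨fun e => g e + if e = s(a, b) then 1 else 0, fun v => ?_, fun c' hc' e he => ?_⟩
    · rw [bd_add, hg1, bd_single B hab.1]
      generalize (if v = a then (1 : ZMod 2) else 0) = A
      generalize (if v = b then (1 : ZMod 2) else 0) = C
      generalize (if v = c then (1 : ZMod 2) else 0) = D
      revert A C D
      decide
    · beta_reduce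
      rw [hg2 c' hc' e he, zero_add, if_neg]
      rintro rfl
      cases c' with
      | inl u =>
        have : s(a, b) ∈ (B.neighborFinset u).image fun y => s(u, y) := he
        obtain ⟨y, -, hy⟩ := mem_image.mp this
        have hu : u ∈ s(a, b) := by
          rw [← hy]
          exact Sym2.mem_mk_left _ _
        rcases Sym2.mem_iff.mp hu with rfl | rfl
        · exact hab.2.1 hc'
        · exact hab.2.2.1 hc'
      | inr q =>
        exact hab.2.2.2 q hc' he

end Generic

section Thick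

variable {ℓ m : ℕ} {Pr : Type} [Fintype Pr] [DecidableEq Pr] (FrC : Pr → Finset (Fin ℓ))

/-- Many blocked vertices in two consecutive columns of one side. -/
def BarrierOn (side : Bool) (X : Finset (BaseV ℓ m ⊕ Pr)) : Prop :=
  ∃ c : ℕ, m + 1 ≤ (X.toLeft.filter fun v => v.1 = side ∧ (v.2.1.val = c ∨ v.2.1.val = c + 1)).card

lemma BarrierOn.mono {side : Bool} {X X' : Finset (BaseV ℓ m ⊕ Pr)} (h : X' ⊆ X)
    (hb : BarrierOn side X') : BarrierOn side X := by
  obtain ⟨c, hc⟩ := hb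
  refine ⟨c, hc.trans (card_le_card ?_)⟩
  exact filter_subset_filter _ (toLeft_subset_toLeft h)

lemma exists_free_lane {side : Bool} {X : Finset (BaseV ℓ m ⊕ Pr)} (hb : ¬ BarrierOn side X)
    (c : ℕ) : ∃ j : Fin (m + 1), ∀ c' : Fin ℓ, (c'.val = c ∨ c'.val = c + 1) →
      (Sum.inl (side, c', j) : BaseV ℓ m ⊕ Pr) ∉ X := by
  by_contra hcon
  push Not at hcon
  choose φ hφ1 hφ2 using hcon
  apply hb
  refine ⟨c, ?_⟩
  have : (univ : Finset (Fin (m + 1))).card ≤
      (X.toLeft.filter fun v => v.1 = side ∧ (v.2.1.val = c ∨ v.2.1.val = c + 1)).card := by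
    apply Finset.card_le_card_of_injOn (fun j => (side, φ j, j))
    · intro j _
      rw [mem_coe, mem_filter, mem_toLeft]
      exact ⟨hφ2 j, rfl, hφ1 j⟩
    · intro j _ j' _ h
      simp only [Prod.mk.injEq] at h
      exact h.2.2
  simpa using this

lemma tree_not_fr {a b : BaseV ℓ m} (h : a.1 = b.1) (p : Pr) : s(a, b) ∉ frEdges m FrC p := by
  intro hmem
  obtain ⟨c, -, hc⟩ := mem_image.mp hmem
  unfold rung at hc
  rcases Sym2.eq_iff.mp hc with ⟨h1, h2⟩ | ⟨h1, h2⟩
  · rw [← h1, ← h2] at h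
    simp at h
  · rw [← h1, ← h2] at h
    simp at h

lemma rung_injective : Function.Injective (rung (ℓ := ℓ) m) := by
  intro c c' h
  unfold rung at h
  rcases Sym2.eq_iff.mp h with ⟨h1, -⟩ | ⟨h1, -⟩
  · simp only [Prod.mk.injEq, true_and] at h1
    exact h1.1
  · simp at h1

/-- Free vertices in one column of one side are joined. -/
lemma col_adj {X : Finset (BaseV ℓ m ⊕ Pr)} {side : Bool} {c : Fin ℓ} {i i' : Fin (m + 1)}
    (h1 : (Sum.inl (side, c, i) : BaseV ℓ m ⊕ Pr) ∉ X)
    (h2 : (Sum.inl (side, c, i') : BaseV ℓ m ⊕ Pr) ∉ X) :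
    (freeG (thick ℓ m) (frEdges m FrC) X).Reachable (side, c, i) (side, c, i') := by
  by_cases hii : i = i'
  · subst hii
    exact SimpleGraph.Reachable.refl _
  · refine SimpleGraph.Adj.reachable ⟨Or.inl ⟨rfl, rfl, hii⟩, h1, h2, fun p _ => ?_⟩
    exact tree_not_fr FrC (a := (side, c, i)) (b := (side, c, i')) rfl p

lemma lane_adj {X : Finset (BaseV ℓ m ⊕ Pr)} {side : Bool} {c c' : Fin ℓ} {i : Fin (m + 1)}
    (hc : c.val + 1 = c'.val)
    (h1 : (Sum.inl (side, c, i) : BaseV ℓ m ⊕ Pr) ∉ X)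
    (h2 : (Sum.inl (side, c', i) : BaseV ℓ m ⊕ Pr) ∉ X) :
    (freeG (thick ℓ m) (frEdges m FrC) X).Reachable (side, c, i) (side, c', i) := by
  refine SimpleGraph.Adj.reachable ⟨Or.inr (Or.inl ⟨rfl, rfl, Or.inl hc⟩), h1, h2, fun p _ => ?_⟩
  exact tree_not_fr FrC (a := (side, c, i)) (b := (side, c', i)) rfl p

/-- Without a barrier a side stays connected. -/
lemma conn_side_aux {X : Finset (BaseV ℓ m ⊕ Pr)} {side : Bool} (hb : ¬ BarrierOn side X) :
    ∀ (n : ℕ) (c c' : Fin ℓ) (i i' : Fin (m + 1)), c.val + n = c'.val →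
      (Sum.inl (side, c, i) : BaseV ℓ m ⊕ Pr) ∉ X →
      (Sum.inl (side, c', i') : BaseV ℓ m ⊕ Pr) ∉ X →
      (freeG (thick ℓ m) (frEdges m FrC) X).Reachable (side, c, i) (side, c', i') := by
  intro n
  induction n with
  | zero =>
    intro c c' i i' hcc h1 h2
    have : c = c' := Fin.ext (by omega)
    subst this
    exact col_adj FrC h1 h2
  | succ n ih =>
    intro c c' i i' hcc h1 h2
    have hlt : c.val + n < ℓ := by
      have := c'.isLt
      omega
    let c'' : Fin ℓ := ⟨c.val + n, hlt⟩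
    obtain ⟨j, hj⟩ := exists_free_lane hb (c.val + n)
    have hj1 := hj c'' (Or.inl rfl)
    have hj2 := hj c' (Or.inr (by omega))
    have r1 := ih c c'' i j rfl h1 hj1
    have r2 := lane_adj FrC (c := c'') (c' := c') (i := j) (by simp [c'']; omega) hj1 hj2
    exact r1.trans (r2.trans (col_adj FrC hj2 h2))

lemma conn_side {X : Finset (BaseV ℓ m ⊕ Pr)} {side : Bool} (hb : ¬ BarrierOn side X)
    {a b : BaseV ℓ m} (ha : a.1 = side) (hb' : b.1 = side)
    (h1 : (Sum.inl a : BaseV ℓ m ⊕ Pr) ∉ X) (h2 : (Sum.inl b : BaseV ℓ m ⊕ Pr) ∉ X) :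
    (freeG (thick ℓ m) (frEdges m FrC) X).Reachable a b := by
  obtain ⟨sa, ca, ia⟩ := a
  obtain ⟨sb, cb, ib⟩ := b
  simp only at ha hb'
  subst ha
  subst hb'
  rcases le_total ca.val cb.val with hle | hle
  · exact conn_side_aux FrC hb (cb.val - ca.val) ca cb ia ib (by omega) h1 h2
  · exact (conn_side_aux FrC hb (ca.val - cb.val) cb ca ib ia (by omega) h2 h1).symm

lemma not_barrier_of_few {side : Bool} {X : Finset (BaseV ℓ m ⊕ Pr)}
    (h : (X.toLeft.filter fun v => v.1 = side).card ≤ m) : ¬ BarrierOn side X := by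
  rintro ⟨c, hc⟩
  have : (X.toLeft.filter fun v => v.1 = side ∧ (v.2.1.val = c ∨ v.2.1.val = c + 1)).card ≤
      (X.toLeft.filter fun v => v.1 = side).card := by
    apply card_le_card
    intro v hv
    simp only [mem_filter] at hv ⊢
    exact ⟨hv.1, hv.2.1⟩
  omega

/-- A barrier on the side `false` uses up `m + 1` blocked vertices; so few remain. -/
lemma barrier_count {X : Finset (BaseV ℓ m ⊕ Pr)} {K : ℕ} (hX : X.card ≤ K + m + 2)
    {c₀ : ℕ}
    (hc₀ : m + 1 ≤ (X.toLeft.filter fun v => v.1 = false ∧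
      (v.2.1.val = c₀ ∨ v.2.1.val = c₀ + 1)).card) :
    X.toRight.card + (X.toLeft.filter fun v => ¬ (v.1 = false ∧
      (v.2.1.val = c₀ ∨ v.2.1.val = c₀ + 1))).card ≤ K + 1 := by
  have h1 := card_toLeft_add_card_toRight (u := X)
  have h2 := Finset.card_filter_add_card_filter_not (s := X.toLeft)
    (fun v : BaseV ℓ m => v.1 = false ∧ (v.2.1.val = c₀ ∨ v.2.1.val = c₀ + 1))
  omega

lemma card_two_cols (c₀ : ℕ) :
    ((univ : Finset (Fin ℓ)).filter fun c => c.val = c₀ ∨ c.val = c₀ + 1).card ≤ 2 := by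
  have h1 : ((univ : Finset (Fin ℓ)).filter fun c => c.val = c₀ ∨ c.val = c₀ + 1).card =
      (((univ : Finset (Fin ℓ)).filter fun c => c.val = c₀ ∨ c.val = c₀ + 1).image Fin.val).card :=
    (card_image_of_injective _ Fin.val_injective).symm
  rw [h1]
  refine (card_le_card (t := {c₀, c₀ + 1}) ?_).trans (card_insert_le _ _)
  intro n hn
  obtain ⟨c, hc, rfl⟩ := mem_image.mp hn
  simp only [mem_filter, mem_univ, true_and] at hc
  simp only [mem_insert, mem_singleton]
  exact hc

/-- The combinatorial heart: a barrier leaves some rung open. -/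
lemma exists_open_rung {X : Finset (BaseV ℓ m ⊕ Pr)} {K : ℕ} (hX : X.card ≤ K + m + 2)
    (hgap : ∀ F : Finset Pr, F.card ≤ K + 1 →
      K + 4 ≤ F.card + (univ \ F.biUnion FrC).card)
    (hb : BarrierOn false X) :
    ∃ c : Fin ℓ, (∀ p, (Sum.inr p : BaseV ℓ m ⊕ Pr) ∈ X → c ∉ FrC p) ∧
      (Sum.inl (false, c, 0) : BaseV ℓ m ⊕ Pr) ∉ X ∧
      (Sum.inl (true, c, 0) : BaseV ℓ m ⊕ Pr) ∉ X := by
  classical
  obtain ⟨c₀, hc₀⟩ := hb
  have hcount := barrier_count hX hc₀
  set F := X.toRight with hF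
  set T' := X.toLeft.filter fun v => ¬ (v.1 = false ∧
      (v.2.1.val = c₀ ∨ v.2.1.val = c₀ + 1)) with hT'
  have hg := hgap F (by omega)
  set U := (univ : Finset (Fin ℓ)) \ F.biUnion FrC with hU
  by_contra hcon
  push Not at hcon
  have hsub : U ⊆ ((univ : Finset (Fin ℓ)).filter fun c => c.val = c₀ ∨ c.val = c₀ + 1) ∪
      T'.image fun v => v.2.1 := by
    intro c hc
    have hc1 : ∀ p, (Sum.inr p : BaseV ℓ m ⊕ Pr) ∈ X → c ∉ FrC p := by
      intro p hp hmem
      have : c ∈ F.biUnion FrC := mem_biUnion.mpr ⟨p, by simpa [hF] using hp, hmem⟩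
      exact (mem_sdiff.mp hc).2 this
    have hc2 := hcon c hc1
    rw [mem_union]
    by_cases hl : (Sum.inl (false, c, 0) : BaseV ℓ m ⊕ Pr) ∈ X
    · by_cases hcol : c.val = c₀ ∨ c.val = c₀ + 1
      · left
        simpa using hcol
      · right
        refine mem_image.mpr ⟨(false, c, 0), ?_, rfl⟩
        rw [hT', mem_filter, mem_toLeft]
        exact ⟨hl, fun h => hcol h.2⟩
    · have hr := hc2 hl
      right
      refine mem_image.mpr ⟨(true, c, 0), ?_, rfl⟩
      rw [hT', mem_filter, mem_toLeft]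
      exact ⟨hr, fun h => by simpa using h.1⟩
  have h3 := card_le_card hsub
  have h4 := card_union_le ((univ : Finset (Fin ℓ)).filter fun c => c.val = c₀ ∨ c.val = c₀ + 1)
    (T'.image fun v : BaseV ℓ m => v.2.1)
  have h5 : (T'.image fun v : BaseV ℓ m => v.2.1).card ≤ T'.card := card_image_le
  have h6 := card_two_cols (ℓ := ℓ) c₀
  omega

/-- The side on which the robber prefers to stay. -/
noncomputable def coreSide (X : Finset (BaseV ℓ m ⊕ Pr)) : Bool :=
  by classical exact if BarrierOn false X then true else false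

lemma not_barrier_coreSide {X : Finset (BaseV ℓ m ⊕ Pr)} {K : ℕ} (hX : X.card ≤ K + m + 2)
    (hm : K + 1 ≤ m) : ¬ BarrierOn (coreSide X) X := by
  classical
  unfold coreSide
  by_cases hb : BarrierOn false X
  · simp only [hb, if_true]
    apply not_barrier_of_few
    obtain ⟨c₀, hc₀⟩ := hb
    have hcount := barrier_count hX hc₀
    have : (X.toLeft.filter fun v => v.1 = true).card ≤
        (X.toLeft.filter fun v => ¬ (v.1 = false ∧ (v.2.1.val = c₀ ∨ v.2.1.val = c₀ + 1))).card := by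
      apply card_le_card
      intro v hv
      simp only [mem_filter] at hv ⊢
      refine ⟨hv.1, fun h => ?_⟩
      rw [hv.2] at h
      simpa using h.1
    omega
  · simp [hb]

lemma coreSide_of_barrier {X : Finset (BaseV ℓ m ⊕ Pr)} (hb : BarrierOn false X) :
    coreSide X = true := by
  classical
  unfold coreSide
  simp [hb]

lemma coreSide_of_not_barrier {X : Finset (BaseV ℓ m ⊕ Pr)} (hb : ¬ BarrierOn false X) :
    coreSide X = false := by
  classical
  unfold coreSide
  simp [hb]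

/-- A vertex on the preferred side. -/
def InCore (X : Finset (BaseV ℓ m ⊕ Pr)) (u : BaseV ℓ m) : Prop :=
  u.1 = coreSide X ∧ (Sum.inl u : BaseV ℓ m ⊕ Pr) ∉ X

lemma core_conn {X : Finset (BaseV ℓ m ⊕ Pr)} {K : ℕ} (hX : X.card ≤ K + m + 2)
    (hm : K + 1 ≤ m) {a b : BaseV ℓ m} (ha : InCore X a) (hb : InCore X b) :
    (freeG (thick ℓ m) (frEdges m FrC) X).Reachable a b :=
  conn_side FrC (not_barrier_coreSide hX hm) ha.1 hb.1 ha.2 hb.2

lemma exists_inCore {X : Finset (BaseV ℓ m ⊕ Pr)} {K : ℕ} (hX : X.card ≤ K + m + 2)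
    (hm : K + 1 ≤ m) (hℓ : 0 < ℓ) : ∃ u : BaseV ℓ m, InCore X u := by
  obtain ⟨j, hj⟩ := exists_free_lane (not_barrier_coreSide hX hm) 0
  exact ⟨(coreSide X, ⟨0, hℓ⟩, j), rfl, hj _ (Or.inl rfl)⟩

/-- Core vertices of a larger class set are connected to the core of a smaller one. -/
lemma core_reach_core {X X' : Finset (BaseV ℓ m ⊕ Pr)} {K : ℕ} (hX : X.card ≤ K + m + 2)
    (hm : K + 1 ≤ m)
    (hgap : ∀ F : Finset Pr, F.card ≤ K + 1 →
      K + 4 ≤ F.card + (univ \ F.biUnion FrC).card)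
    (hsub : X' ⊆ X) {u : BaseV ℓ m} (hu : InCore X u) :
    ∃ u', InCore X' u' ∧ (freeG (thick ℓ m) (frEdges m FrC) X').Reachable u' u := by
  by_cases hb' : BarrierOn false X'
  · have hb := hb'.mono hsub
    refine ⟨u, ⟨?_, fun h => hu.2 (hsub h)⟩, SimpleGraph.Reachable.refl _⟩
    rw [coreSide_of_barrier hb', hu.1, coreSide_of_barrier hb]
  · by_cases hb : BarrierOn false X
    · obtain ⟨c, hc1, hc2, hc3⟩ := exists_open_rung FrC hX hgap hb
      have hsideU : u.1 = true := by rw [hu.1, coreSide_of_barrier hb]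
      have hb0 : InCore X (true, c, 0) := ⟨by rw [coreSide_of_barrier hb], hc3⟩
      have r1 := core_conn FrC hX hm hb0 hu
      have hadj : (freeG (thick ℓ m) (frEdges m FrC) X).Adj (false, c, 0) (true, c, 0) := by
        refine ⟨Or.inr (Or.inr ⟨by simp, rfl, rfl, rfl⟩), hc2, hc3, fun p hp hmem => ?_⟩
        obtain ⟨c', hc', hr⟩ := mem_image.mp hmem
        have : c' = c := rung_injective hr
        subst this
        exact hc1 p hp hc'
      have r2 := hadj.reachable.trans r1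
      refine ⟨(false, c, 0), ⟨?_, fun h => hc2 (hsub h)⟩, ?_⟩
      · rw [coreSide_of_not_barrier hb']
      · exact r2.mono (freeG_mono _ _ hsub)
    · refine ⟨u, ⟨?_, fun h => hu.2 (hsub h)⟩, SimpleGraph.Reachable.refl _⟩
      rw [coreSide_of_not_barrier hb', hu.1, coreSide_of_not_barrier hb]

/-- The robber's safe positions. -/
def SafeT (K : ℕ) (X : Finset (BaseV ℓ m ⊕ Pr)) (w : BaseV ℓ m) : Prop :=
  X.card ≤ K + m + 2 ∧ (Sum.inl w : BaseV ℓ m ⊕ Pr) ∉ X ∧
    ∃ u, InCore X u ∧ (freeG (thick ℓ m) (frEdges m FrC) X).Reachable u w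

lemma safeT_mono {K : ℕ} (hm : K + 1 ≤ m)
    (hgap : ∀ F : Finset Pr, F.card ≤ K + 1 →
      K + 4 ≤ F.card + (univ \ F.biUnion FrC).card)
    (X X' : Finset (BaseV ℓ m ⊕ Pr)) (w : BaseV ℓ m) (hsub : X' ⊆ X)
    (h : SafeT FrC K X w) : SafeT FrC K X' w := by
  obtain ⟨h1, h2, u, hu, hr⟩ := h
  refine ⟨(card_le_card hsub).trans h1, fun h' => h2 (hsub h'), ?_⟩
  obtain ⟨u', hu', hr'⟩ := core_reach_core FrC h1 hm hgap hsub hu
  exact ⟨u', hu', hr'.trans (hr.mono (freeG_mono _ _ hsub))⟩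

lemma safeT_step {K : ℕ} (hm : K + 1 ≤ m) (hℓ : 0 < ℓ)
    (hgap : ∀ F : Finset Pr, F.card ≤ K + 1 →
      K + 4 ≤ F.card + (univ \ F.biUnion FrC).card)
    (X : Finset (BaseV ℓ m ⊕ Pr)) (w : BaseV ℓ m) (h : SafeT FrC K X w)
    (hcard : X.card ≤ K + m + 1) (c : BaseV ℓ m ⊕ Pr) :
    ∃ (w' : BaseV ℓ m) (g : Sym2 (BaseV ℓ m) → ZMod 2),
      SafeT FrC K (insert c X) w' ∧
      (∀ v, bd (thick ℓ m) g v = (if v = w then 1 else 0) + (if v = w' then 1 else 0)) ∧
      ∀ c' ∈ X, ∀ e ∈ edgesOf (thick ℓ m) (frEdges m FrC) c', g e = 0 := by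
  have hY : (insert c X).card ≤ K + m + 2 := (card_insert_le _ _).trans (by omega)
  obtain ⟨w', hw'⟩ := exists_inCore hY hm hℓ
  have hS' : SafeT FrC K (insert c X) w' := ⟨hY, hw'.2, w', hw', SimpleGraph.Reachable.refl _⟩
  obtain ⟨-, -, u, hu, hr⟩ := h
  obtain ⟨-, -, u', hu', hr'⟩ := safeT_mono FrC hm hgap _ X w' (subset_insert _ _) hS'
  have r : (freeG (thick ℓ m) (frEdges m FrC) X).Reachable w w' :=
    hr.symm.trans ((core_conn FrC (by omega) hm hu hu').trans hr')
  obtain ⟨g, hg1, hg2⟩ := exists_flip _ _ r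
  exact ⟨w', g, hS', hg1, hg2⟩

/-- The base vertex with twist 1. -/
def v₀ (hℓ : 0 < ℓ) : BaseV ℓ m := (false, ⟨0, hℓ⟩, 0)

lemma twist_eq (hℓ : 0 < ℓ) (v : BaseV ℓ m) :
    twist ℓ m v = if v = v₀ hℓ then 1 else 0 := by
  unfold twist v₀
  have : (v.1 = false ∧ v.2.1.val = 0 ∧ v.2.2 = 0) ↔ v = (false, ⟨0, hℓ⟩, 0) := by
    obtain ⟨a, c, i⟩ := v
    simp only [Prod.mk.injEq, Fin.ext_iff]
  simp only [this]

/-- The root with all bits zero of a class, in the graph with zero parity. -/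
noncomputable def zeroRoot (B : SimpleGraph (BaseV ℓ m)) [DecidableRel B.Adj]
    (Fr : Pr → Finset (Sym2 (BaseV ℓ m))) (c : BaseV ℓ m ⊕ Pr) :
    VT B Fr (fun _ => 0) :=
  ⟨(⟨c, fun _ => 0⟩, 0), by
    refine ⟨?_, by simp⟩
    cases c with
    | inl v => simp [parityOK]
    | inr p => trivial⟩

/-- The no case: under the gap condition the two graphs are WL equivalent. -/
theorem no_case {K : ℕ} (hm : K + 1 ≤ m) (hℓ : 0 < ℓ) (p₀ : Pr)
    (hgap : ∀ F : Finset Pr, F.card ≤ K + 1 →
      K + 4 ≤ F.card + (univ \ F.biUnion FrC).card) :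
    WLEquiv (K + m + 1) (vtGraph (thick ℓ m) (frEdges m FrC) (fun _ => 0))
      (vtGraph (thick ℓ m) (frEdges m FrC) (twist ℓ m)) := by
  let a₀ : Node (thick ℓ m) (frEdges m FrC) × Fin (pendMax (thick ℓ m) (frEdges m FrC) + 1) :=
    (⟨Sum.inr p₀, fun _ => 0⟩, 0)
  have ha₀ : ∀ t, vtOK (thick ℓ m) (frEdges m FrC) t a₀ := fun t => ⟨trivial, by simp [a₀]⟩
  let x₀ : Fin (K + m + 1) → VT (thick ℓ m) (frEdges m FrC) (fun _ => 0) := fun _ => ⟨a₀, ha₀ _⟩
  let y₀ : Fin (K + m + 1) → VT (thick ℓ m) (frEdges m FrC) (twist ℓ m) := fun _ => ⟨a₀, ha₀ _⟩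
  refine wlEquiv_of_start x₀ y₀ fun r => ?_
  refine dup_main (SafeT FrC K) _ _ (fun X w h => h.2.1) ?_ ?_ r x₀ y₀ (fun _ => 0) (v₀ hℓ) ?_
  · exact safeT_mono FrC hm hgap
  · intro X w h hc c
    exact safeT_step FrC hm hℓ hgap X w h hc c
  · refine ⟨?_, ?_, ?_⟩
    · intro j
      apply Prod.ext
      · change a₀.1 = ⟨a₀.1.1, fun e => a₀.1.2 e + 0⟩
        simp only [add_zero]
      · rfl
    · intro v
      rw [twist_eq hℓ]
      have : bd (thick ℓ m) (fun _ => (0 : ZMod 2)) v = 0 := by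
        unfold bd
        simp
      rw [this]
      simp
    · have hcls : clsT x₀ ⊆ {Sum.inr p₀} := by
        intro c hc
        unfold clsT at hc
        obtain ⟨j, -, rfl⟩ := mem_image.mp hc
        simp [x₀, a₀]
      have hb : ¬ BarrierOn false (clsT x₀) := by
        rintro ⟨c, hc⟩
        have : (clsT x₀).toLeft = ∅ := by
          ext v
          simp only [mem_toLeft, notMem_empty, iff_false]
          intro hv
          have := hcls hv
          simp at this
        rw [this] at hc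
        simp at hc
      have hcore : InCore (clsT x₀) (v₀ hℓ) := by
        refine ⟨?_, ?_⟩
        · rw [coreSide_of_not_barrier hb]
          rfl
        · intro hv
          have := hcls hv
          simp at this
      exact ⟨(card_le_card hcls).trans (by simp), hcore.2, _, hcore,
        SimpleGraph.Reachable.refl _⟩

end Thick

end Vale.Agent.Lib.P310
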