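import Vale.Agent.Lib.P310.Spoiler

set_option linter.unusedSectionVars false

namespace Vale.Agent.Lib.P310

open Finset

section Cnf

variable {Var ι : Type} [Fintype Var] [DecidableEq Var] [Fintype ι] [DecidableEq ι] {k : ℕ}
variable (cl : ι → Finset (Var × Bool)) (bl : Var → Fin k)

lemma mem_frLabel_inl (p : Probe bl) (q : ι × Bool × Fin 4) :
    (Sum.inl q : RungLabel ι k) ∈ frLabel cl bl p ↔
      q.2.1 = p.1.2 ∧ ∃ l ∈ cl q.1, ∃ h : bl l.1 = p.1.1, p.2 ⟨l.1, h⟩ = l.2 := by
  classical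
  unfold frLabel
  simp

lemma mem_frLabel_inr (p : Probe bl) (q : Fin k × Bool × Fin (2 * k + 4)) :
    (Sum.inr q : RungLabel ι k) ∈ frLabel cl bl p ↔ q.1 = p.1.1 ∧ q.2.1 = p.1.2 := by
  classical
  unfold frLabel
  simp

lemma mem_frCols (p : Probe bl) (w : RungLabel ι k) :
    (Fintype.equivFin (RungLabel ι k)) w ∈ frCols cl bl p ↔ w ∈ frLabel cl bl p := by
  unfold frCols
  simp

lemma card_label_pos (hk : 0 < k) : 0 < Fintype.card (RungLabel ι k) :=
  Fintype.card_pos_iff.mpr ⟨Sum.inr (⟨0, hk⟩, false, ⟨0, by omega⟩)⟩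

/-- A satisfying assignment gives a cover by `2 * k` probes. -/
theorem not_wl_of_sat (hk : 0 < k) (m : ℕ) (hsat : Satisfiable cl) :
    ¬ WLEquiv (2 * k + m + 1) (srcGraph cl bl m) (tgtGraph cl bl m) := by
  obtain ⟨a, ha⟩ := hsat
  have hcard : Fintype.card (Fin (2 * k)) = Fintype.card (Fin k × Bool) := by
    simp [Nat.mul_comm]
  let E : Fin (2 * k) ≃ Fin k × Bool := Fintype.equivOfCardEq hcard
  let s : Fin (2 * k) → Probe bl := fun j => ⟨E j, fun v => a v.1⟩
  refine yes_case (frCols cl bl) (card_label_pos hk) (by omega) s ?_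
  intro c
  obtain ⟨w, rfl⟩ := (Fintype.equivFin (RungLabel ι k)).surjective c
  cases w with
  | inl q =>
    obtain ⟨C, b, r⟩ := q
    obtain ⟨l, hl, hal⟩ := ha C
    refine ⟨E.symm (bl l.1, b), ?_⟩
    rw [mem_frCols, mem_frLabel_inl]
    refine ⟨by simp [s], l, hl, by simp [s], ?_⟩
    simpa [s] using hal
  | inr q =>
    obtain ⟨i, b, r⟩ := q
    refine ⟨E.symm (i, b), ?_⟩
    rw [mem_frCols, mem_frLabel_inr]
    simp [s]

/-- Counting in fibers of a family of probes. -/
lemma card_eq_sum_fibers (F : Finset (Probe bl)) :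
    F.card = ∑ b : Bool, ∑ i : Fin k, (F.filter fun p => p.1 = (i, b)).card := by
  rw [Finset.card_eq_sum_card_fiberwise (f := fun p : Probe bl => p.1) (t := univ)
    (fun _ _ => mem_univ _)]
  rw [Fintype.sum_prod_type_right]

/-- The gap condition on rung labels for an unsatisfiable formula. -/
theorem gap_label (hk : 0 < k) (hunsat : ¬ Satisfiable cl) (F : Finset (Probe bl))
    (hF : F.card ≤ 2 * k + 1) :
    2 * k + 4 ≤ F.card + (univ \ F.biUnion (frLabel cl bl)).card := by
  classical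
  by_cases hA : ∃ ix : Fin k × Bool, ∀ p ∈ F, p.1 ≠ ix
  · obtain ⟨ix, hix⟩ := hA
    have hsub : (univ.image fun r : Fin (2 * k + 4) =>
        (Sum.inr (ix.1, ix.2, r) : RungLabel ι k)) ⊆ univ \ F.biUnion (frLabel cl bl) := by
      intro w hw
      obtain ⟨r, -, rfl⟩ := mem_image.mp hw
      rw [mem_sdiff]
      refine ⟨mem_univ _, fun hmem => ?_⟩
      obtain ⟨p, hp, hpw⟩ := mem_biUnion.mp hmem
      rw [mem_frLabel_inr] at hpw
      exact hix p hp (Prod.ext hpw.1.symm hpw.2.symm)
    have h1 := card_le_card hsub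
    rw [card_image_of_injective _ (by
      intro r r' h
      simpa using h)] at h1
    simp only [card_univ, Fintype.card_fin] at h1
    omega
  · push Not at hA
    have hfib : ∀ ix : Fin k × Bool, 1 ≤ (F.filter fun p => p.1 = ix).card := by
      intro ix
      obtain ⟨p, hp, hp2⟩ := hA ix
      exact card_pos.mpr ⟨p, mem_filter.mpr ⟨hp, hp2⟩⟩
    have hside : ∀ b : Bool, k ≤ ∑ i : Fin k, (F.filter fun p => p.1 = (i, b)).card := by
      intro b
      calc k = ∑ _i : Fin k, 1 := by simp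
        _ ≤ _ := Finset.sum_le_sum fun i _ => hfib (i, b)
    have hcardF := card_eq_sum_fibers bl F
    rw [Fintype.sum_bool] at hcardF
    have hfull : 2 * k ≤ F.card := by
      have h1 := hside true
      have h2 := hside false
      omega
    -- one of the copies has exactly one probe per block
    have hone : ∃ b : Bool, ∀ i : Fin k, (F.filter fun p => p.1 = (i, b)).card ≤ 1 := by
      by_contra hcon
      push Not at hcon
      have hstrict : ∀ b : Bool, k + 1 ≤ ∑ i : Fin k, (F.filter fun p => p.1 = (i, b)).card := by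
        intro b
        obtain ⟨i₀, hi₀⟩ := hcon b
        have : ∑ _i : Fin k, 1 < ∑ i : Fin k, (F.filter fun p => p.1 = (i, b)).card :=
          Finset.sum_lt_sum (fun i _ => hfib (i, b)) ⟨i₀, mem_univ _, hi₀⟩
        simpa using this
      have h1 := hstrict true
      have h2 := hstrict false
      omega
    obtain ⟨b, hb⟩ := hone
    have huniq : ∀ i : Fin k, ∀ p ∈ F, ∀ p' ∈ F, p.1 = (i, b) → p'.1 = (i, b) → p = p' := by
      intro i p hp p' hp' h1 h2
      exact card_le_one.mp (hb i) p (mem_filter.mpr ⟨hp, h1⟩) p' (mem_filter.mpr ⟨hp', h2⟩)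
    choose P hP1 hP2 using fun i : Fin k => hA (i, b)
    let a : Var → Bool := fun v =>
      (P (bl v)).2 ⟨v, by rw [hP2 (bl v)]⟩
    have hC : ∃ C, ∀ l ∈ cl C, a l.1 ≠ l.2 := by
      by_contra hcon
      push Not at hcon
      exact hunsat ⟨a, hcon⟩
    obtain ⟨C, hC⟩ := hC
    have hsub : (univ.image fun r : Fin 4 => (Sum.inl (C, b, r) : RungLabel ι k)) ⊆
        univ \ F.biUnion (frLabel cl bl) := by
      intro w hw
      obtain ⟨r, -, rfl⟩ := mem_image.mp hw
      rw [mem_sdiff]
      refine ⟨mem_univ _, fun hmem => ?_⟩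
      obtain ⟨p, hp, hpw⟩ := mem_biUnion.mp hmem
      rw [mem_frLabel_inl] at hpw
      obtain ⟨hb', l, hl, h, hval⟩ := hpw
      have hp1 : p.1 = (bl l.1, b) := Prod.ext h.symm hb'.symm
      have hpeq : p = P (bl l.1) := huniq _ p hp _ (hP1 _) hp1 (hP2 _)
      apply hC l hl
      have : a l.1 = (P (bl l.1)).2 ⟨l.1, by rw [hP2 (bl l.1)]⟩ := rfl
      rw [this]
      have key : ∀ p' : Probe bl, p' = p → ∀ h' : bl l.1 = p'.1.1, p'.2 ⟨l.1, h'⟩ = l.2 := by
        rintro p' rfl h'
        exact hval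
      exact key _ hpeq.symm _
    have h1 := card_le_card hsub
    rw [card_image_of_injective _ (by
      intro r r' h
      simpa using h)] at h1
    simp only [card_univ, Fintype.card_fin] at h1
    omega

/-- The gap condition on columns. -/
theorem gap_cols (hk : 0 < k) (hunsat : ¬ Satisfiable cl) (F : Finset (Probe bl))
    (hF : F.card ≤ 2 * k + 1) :
    2 * k + 4 ≤ F.card + (univ \ F.biUnion (frCols cl bl)).card := by
  classical
  have h0 := gap_label cl bl hk hunsat F hF
  have hsub : (univ \ F.biUnion (frLabel cl bl)).map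
      (Fintype.equivFin (RungLabel ι k)).toEmbedding ⊆ univ \ F.biUnion (frCols cl bl) := by
    intro c hc
    obtain ⟨w, hw, rfl⟩ := mem_map.mp hc
    rw [mem_sdiff] at hw ⊢
    refine ⟨mem_univ _, fun hmem => hw.2 ?_⟩
    obtain ⟨p, hp, hpc⟩ := mem_biUnion.mp hmem
    exact mem_biUnion.mpr ⟨p, hp, (mem_frCols cl bl p w).mp hpc⟩
  have h1 := card_le_card hsub
  rw [card_map] at h1
  omega

/-- The reduction: the two graphs are WL equivalent exactly for unsatisfiable formulas. -/
theorem wlEquiv_iff_unsat (hk : 0 < k) {m : ℕ} (hm : 2 * k + 1 ≤ m) :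
    WLEquiv (2 * k + m + 1) (srcGraph cl bl m) (tgtGraph cl bl m) ↔ ¬ Satisfiable cl := by
  constructor
  · intro hE hsat
    exact not_wl_of_sat cl bl hk m hsat hE
  · intro hunsat
    exact no_case (K := 2 * k) (frCols cl bl) hm (card_label_pos hk)
      ⟨(⟨0, hk⟩, false), fun _ => false⟩ (gap_cols cl bl hk hunsat)

end Cnf

end Vale.Agent.Lib.P310
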