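import Vale.Agent.Lib.P310.Haven

set_option linter.unusedSectionVars false

namespace Vale.Agent.Lib.P310

open Finset

section Generic

variable {BV Pr : Type} [Fintype BV] [DecidableEq BV] [Fintype Pr] [DecidableEq Pr]
variable {B : SimpleGraph BV} [DecidableRel B.Adj] {Fr : Pr → Finset (Sym2 BV)}

lemma pend_le_max (c : BV ⊕ Pr) : pend B Fr c ≤ pendMax B Fr := by
  unfold pend pendMax
  apply Nat.mul_le_mul_right
  exact ((Fintype.equivFin (BV ⊕ Pr)) c).isLt

lemma vt_adj_iff {t : BV → ZMod 2} {a b : VT B Fr t} :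
    (vtGraph B Fr t).Adj a b ↔
      (a.1.2.val = 0 ∧ b.1.2.val = 0 ∧ nodeAdj B Fr a.1.1 b.1.1) ∨
        (a.1.1 = b.1.1 ∧ ((a.1.2.val = 0 ∧ b.1.2.val ≠ 0) ∨ (a.1.2.val ≠ 0 ∧ b.1.2.val = 0))) :=
  Iff.rfl

lemma dg_pendant {t : BV → ZMod 2} {a : VT B Fr t} (ha : a.1.2.val ≠ 0) :
    dg (vtGraph B Fr t) a ≤ 1 := by
  classical
  unfold dg
  rw [Fintype.card_le_one_iff]
  rintro ⟨b, hb⟩ ⟨b', hb'⟩
  apply Subtype.ext
  apply Subtype.ext
  rw [vt_adj_iff] at hb hb'
  rcases hb with ⟨h, -⟩ | ⟨h1, h2 | h2⟩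
  · exact absurd h ha
  · exact absurd h2.1 ha
  · rcases hb' with ⟨h, -⟩ | ⟨h1', h2' | h2'⟩
    · exact absurd h ha
    · exact absurd h2'.1 ha
    · apply Prod.ext
      · exact h1.symm.trans h1'
      · apply Fin.ext
        rw [h2.2, h2'.2]

lemma dg_root_lower {t : BV → ZMod 2} {a : VT B Fr t} (ha : a.1.2.val = 0) :
    pend B Fr a.1.1.1 ≤ dg (vtGraph B Fr t) a := by
  classical
  unfold dg
  have hle := pend_le_max (B := B) (Fr := Fr) a.1.1.1
  let φ : Fin (pend B Fr a.1.1.1) → {b // (vtGraph B Fr t).Adj a b} := fun i =>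
    ⟨⟨(a.1.1, ⟨i.val + 1, by have := i.isLt; omega⟩), a.2.1, by
      have := i.isLt
      show i.val + 1 ≤ pend B Fr a.1.1.1
      omega⟩, by
      rw [vt_adj_iff]
      exact Or.inr ⟨rfl, Or.inl ⟨ha, by simp⟩⟩⟩
  have hφ : Function.Injective φ := by
    intro i i' h
    have h1 := congrArg (fun b => b.1.1.2.val) h
    simp only [φ] at h1
    exact Fin.ext (by omega)
  simpa using Fintype.card_le_of_injective φ hφ

lemma dg_root_upper {t : BV → ZMod 2} {a : VT B Fr t} :
    dg (vtGraph B Fr t) a ≤ Fintype.card (Node B Fr) + pend B Fr a.1.1.1 := by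
  classical
  unfold dg
  have hin : ∀ b : {b // (vtGraph B Fr t).Adj a b}, b.1.1.2.val ≠ 0 →
      b.1.1.1 = a.1.1 ∧ b.1.1.2.val - 1 < pend B Fr a.1.1.1 := by
    rintro ⟨b, hb⟩ h0
    rw [vt_adj_iff] at hb
    rcases hb with ⟨-, h, -⟩ | ⟨h1, h2⟩
    · exact absurd h h0
    · have h3 := b.2.2
      rw [← h1] at h3
      exact ⟨h1.symm, by simp only at h0 ⊢; omega⟩
  let φ : {b // (vtGraph B Fr t).Adj a b} → Node B Fr ⊕ Fin (pend B Fr a.1.1.1) := fun b =>
    if h : b.1.1.2.val = 0 then Sum.inl b.1.1.1 else Sum.inr ⟨b.1.1.2.val - 1, (hin b h).2⟩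
  have hφ : Function.Injective φ := by
    intro b b' h
    simp only [φ] at h
    apply Subtype.ext
    apply Subtype.ext
    by_cases h1 : b.1.1.2.val = 0
    · by_cases h2 : b'.1.1.2.val = 0
      · rw [dif_pos h1, dif_pos h2] at h
        apply Prod.ext
        · exact Sum.inl.inj h
        · exact Fin.ext (by rw [h1, h2])
      · rw [dif_pos h1, dif_neg h2] at h
        exact absurd h (by simp)
    · by_cases h2 : b'.1.1.2.val = 0
      · rw [dif_neg h1, dif_pos h2] at h
        exact absurd h (by simp)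
      · rw [dif_neg h1, dif_neg h2] at h
        apply Prod.ext
        · rw [(hin b h1).1, (hin b' h2).1]
        · have := congrArg Fin.val (Sum.inr.inj h)
          simp only at this
          apply Fin.ext
          omega
  have := Fintype.card_le_of_injective φ hφ
  simpa using this

/-- Equal degrees force a root of the same class. -/
lemma root_of_dg_eq {t t' : BV → ZMod 2} {a : VT B Fr t} {b : VT B Fr t'}
    (ha : a.1.2.val = 0) (h : dg (vtGraph B Fr t) a = dg (vtGraph B Fr t') b) :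
    b.1.2.val = 0 ∧ b.1.1.1 = a.1.1.1 := by
  have h1 := dg_root_lower (B := B) (Fr := Fr) ha
  have hpos : Fintype.card (Node B Fr) + 2 ≤ pend B Fr a.1.1.1 := by
    unfold pend
    exact Nat.le_mul_of_pos_left _ (Nat.succ_pos _)
  have hb : b.1.2.val = 0 := by
    by_contra hne
    have := dg_pendant (B := B) (Fr := Fr) hne
    omega
  refine ⟨hb, ?_⟩
  have h2 := dg_root_lower (B := B) (Fr := Fr) hb
  have h3 := dg_root_upper (B := B) (Fr := Fr) (a := a)
  have h4 := dg_root_upper (B := B) (Fr := Fr) (a := b)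
  have hidx : ((Fintype.equivFin (BV ⊕ Pr)) b.1.1.1 : ℕ) =
      ((Fintype.equivFin (BV ⊕ Pr)) a.1.1.1 : ℕ) := by
    set N := Fintype.card (Node B Fr)
    set A := ((Fintype.equivFin (BV ⊕ Pr)) a.1.1.1 : ℕ) with hA
    set C := ((Fintype.equivFin (BV ⊕ Pr)) b.1.1.1 : ℕ) with hC
    have ea : pend B Fr a.1.1.1 = (A + 1) * (N + 2) := rfl
    have eb : pend B Fr b.1.1.1 = (C + 1) * (N + 2) := rfl
    rw [ea] at h1 h3
    rw [eb] at h2 h4
    rcases lt_trichotomy A C with hlt | heq | hgt
    · exfalso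
      have : (A + 2) * (N + 2) ≤ (C + 1) * (N + 2) := Nat.mul_le_mul_right _ (by omega)
      have e1 : (A + 2) * (N + 2) = (A + 1) * (N + 2) + (N + 2) := by ring
      omega
    · exact heq.symm
    · exfalso
      have : (C + 2) * (N + 2) ≤ (A + 1) * (N + 2) := Nat.mul_le_mul_right _ (by omega)
      have e1 : (C + 2) * (N + 2) = (C + 1) * (N + 2) + (N + 2) := by ring
      omega
  exact (Fintype.equivFin (BV ⊕ Pr)).injective (Fin.ext hidx)

/-- One move of the game. -/
lemma move {d : ℕ} (hd : 2 ≤ d) {t t' : BV → ZMod 2} {r : ℕ} {x : Fin d → VT B Fr t}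
    {y : Fin d → VT B Fr t'}
    (h : wlColor (vtGraph B Fr t) (r + 2) x = wlColor (vtGraph B Fr t') (r + 2) y)
    (a : VT B Fr t) (ha : a.1.2.val = 0) (i : Fin d) :
    ∃ z : VT B Fr t',
      wlColor (vtGraph B Fr t) (r + 1) (Function.update x i a) =
        wlColor (vtGraph B Fr t') (r + 1) (Function.update y i z) ∧
      z.1.2.val = 0 ∧ z.1.1.1 = a.1.1.1 ∧
      ∀ j, ((vtGraph B Fr t).Adj a (x j) ↔ (vtGraph B Fr t').Adj z (y j)) := by
  obtain ⟨-, π, hπ⟩ := wlColor_succ_eq_iff.mp h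
  refine ⟨π a, hπ a i, ?_⟩
  have hdg := dg_eq_of_eq hd (hπ a i) i
  simp only [Function.update_self] at hdg
  obtain ⟨h1, h2⟩ := root_of_dg_eq ha hdg
  refine ⟨h1, h2, fun j => ?_⟩
  have : Nontrivial (Fin d) := Fin.nontrivial_iff_two_le.mpr hd
  obtain ⟨i', hi'⟩ := exists_ne j
  have h3 := (atomic_of_eq (hπ a i') i' j).2
  simp only [Function.update_self, Function.update_of_ne hi'.symm] at h3
  exact h3

/-- Extension of the bits of a node to all edges. -/
def ext (u : Node B Fr) (e : Sym2 BV) : ZMod 2 :=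
  if h : e ∈ edgesOf B Fr u.1 then u.2 ⟨e, h⟩ else 0

lemma ext_agree {u u' : Node B Fr} (h : nodeAdj B Fr u u') {e : Sym2 BV}
    (he : e ∈ edgesOf B Fr u.1) (he' : e ∈ edgesOf B Fr u'.1) : ext u e = ext u' e := by
  unfold ext
  rw [dif_pos he, dif_pos he']
  exact h.2.2 e he he'

/-- The root with zero bits in a graph with parity function zero. -/
noncomputable def zr (c : BV ⊕ Pr) : VT B Fr (fun _ => 0) :=
  ⟨(⟨c, fun _ => 0⟩, 0), by
    refine ⟨?_, by simp⟩
    cases c with
    | inl v => simp [parityOK]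
    | inr p => trivial⟩

lemma zr_adj {c c' : BV ⊕ Pr} (hc : c ≠ c') {e : Sym2 BV} (he : e ∈ edgesOf B Fr c)
    (he' : e ∈ edgesOf B Fr c') : (vtGraph B Fr (fun _ => 0)).Adj (zr c) (zr c') := by
  rw [vt_adj_iff]
  exact Or.inl ⟨rfl, rfl, hc, ⟨e, he, he'⟩, fun _ _ _ => rfl⟩

lemma roots_agree {t' : BV → ZMod 2} {z z' : VT B Fr t'} (h0 : z.1.2.val = 0)
    (h0' : z'.1.2.val = 0) (h : (vtGraph B Fr t').Adj z z') {e : Sym2 BV}
    (he : e ∈ edgesOf B Fr z.1.1.1) (he' : e ∈ edgesOf B Fr z'.1.1.1) :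
    ext z.1.1 e = ext z'.1.1 e := by
  rw [vt_adj_iff] at h
  rcases h with ⟨-, -, h⟩ | ⟨-, h | h⟩
  · exact ext_agree h he he'
  · exact absurd h0' h.2
  · exact absurd h0 h.1

/-- The move with the root of zero bits of a class. -/
lemma move_zr {d : ℕ} (hd : 2 ≤ d) {t' : BV → ZMod 2} {r : ℕ} {x : Fin d → VT B Fr (fun _ => 0)}
    {y : Fin d → VT B Fr t'}
    (h : wlColor (vtGraph B Fr (fun _ => 0)) (r + 2) x = wlColor (vtGraph B Fr t') (r + 2) y)
    (c : BV ⊕ Pr) (i : Fin d) :
    ∃ z : VT B Fr t',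
      wlColor (vtGraph B Fr (fun _ => 0)) (r + 1) (Function.update x i (zr c)) =
        wlColor (vtGraph B Fr t') (r + 1) (Function.update y i z) ∧
      z.1.2.val = 0 ∧ z.1.1.1 = c ∧
      ∀ j, ((vtGraph B Fr (fun _ => 0)).Adj (zr c) (x j) ↔ (vtGraph B Fr t').Adj z (y j)) :=
  move hd h (zr c) rfl i

/-- A slot holding a root of a class in the source holds a root of the same class in the target. -/
lemma slot_root {d : ℕ} (hd : 2 ≤ d) {t t' : BV → ZMod 2} {r : ℕ} {x : Fin d → VT B Fr t}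
    {y : Fin d → VT B Fr t'}
    (h : wlColor (vtGraph B Fr t) (r + 1) x = wlColor (vtGraph B Fr t') (r + 1) y) (j : Fin d)
    (hj : (x j).1.2.val = 0) : (y j).1.2.val = 0 ∧ (y j).1.1.1 = (x j).1.1.1 :=
  root_of_dg_eq hj (dg_eq_of_eq hd h j)

/-- The slot of step `a` was not reused before step `n`. -/
def Alive {d : ℕ} (seqS : ℕ → Fin d) (a n : ℕ) : Prop := ∀ s, a < s → s < n → seqS s ≠ seqS a

/-- A sequence of moves: classes `seqC`, slots `seqS`. -/
theorem schedule {d : ℕ} (hd : 2 ≤ d) (t' : BV → ZMod 2) (seqC : ℕ → BV ⊕ Pr) (seqS : ℕ → Fin d)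
    (x₀ : Fin d → VT B Fr (fun _ => 0)) (y₀ : Fin d → VT B Fr t') (R : ℕ) :
    ∀ M : ℕ, M + 2 ≤ R →
      wlColor (vtGraph B Fr (fun _ => 0)) R x₀ = wlColor (vtGraph B Fr t') R y₀ →
      ∃ (x : Fin d → VT B Fr (fun _ => 0)) (y : Fin d → VT B Fr t') (z : ℕ → VT B Fr t'),
        wlColor (vtGraph B Fr (fun _ => 0)) (R - M) x = wlColor (vtGraph B Fr t') (R - M) y ∧
        (∀ a < M, (z a).1.2.val = 0 ∧ (z a).1.1.1 = seqC a) ∧
        (∀ a < M, Alive seqS a M → x (seqS a) = zr (seqC a) ∧ y (seqS a) = z a) ∧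
        (∀ j, (∀ s < M, seqS s ≠ j) → x j = x₀ j ∧ y j = y₀ j) ∧
        (∀ a b, a < b → b < M → Alive seqS a b → seqC a ≠ seqC b →
          ∀ e, e ∈ edgesOf B Fr (seqC a) → e ∈ edgesOf B Fr (seqC b) →
            ext (z a).1.1 e = ext (z b).1.1 e) ∧
        (∀ b < M, ∀ j, (∀ s < b, seqS s ≠ j) → ∀ c, x₀ j = zr c → c ≠ seqC b →
          ∀ e, e ∈ edgesOf B Fr c → e ∈ edgesOf B Fr (seqC b) →
            ext (y₀ j).1.1 e = ext (z b).1.1 e) := by
  intro M
  induction M with
  | zero =>
    intro _ h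
    refine ⟨x₀, y₀, fun _ => y₀ ⟨0, by omega⟩, h, ?_, ?_, ?_, ?_, ?_⟩
    · intro a ha
      omega
    · intro a ha
      omega
    · intro j _
      exact ⟨rfl, rfl⟩
    · intro a b _ hb
      omega
    · intro b hb
      omega
  | succ M ih =>
    intro hR h
    obtain ⟨x, y, z, h1, h2, h3, h4, h5, h6⟩ := ih (by omega) h
    have hlev : R - M = (R - (M + 1) - 1) + 2 := by omega
    rw [hlev] at h1
    obtain ⟨w, hw1, hw2, hw3, hw4⟩ := move_zr hd h1 (seqC M) (seqS M)
    have hlev2 : R - (M + 1) - 1 + 1 = R - (M + 1) := by omega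
    rw [hlev2] at hw1
    refine ⟨Function.update x (seqS M) (zr (seqC M)), Function.update y (seqS M) w,
      Function.update z M w, hw1, ?_, ?_, ?_, ?_, ?_⟩
    · intro a ha
      by_cases haM : a = M
      · subst haM
        simp only [Function.update_self]
        exact ⟨hw2, hw3⟩
      · rw [Function.update_of_ne haM]
        exact h2 a (by omega)
    · intro a ha hal
      by_cases haM : a = M
      · subst haM
        simp
      · have haM' : a < M := by omega
        have hne : seqS a ≠ seqS M := (hal M haM' (by omega)).symm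
        rw [Function.update_of_ne hne, Function.update_of_ne hne, Function.update_of_ne haM]
        exact h3 a haM' fun s hs1 hs2 => hal s hs1 (by omega)
    · intro j hj
      have hne : j ≠ seqS M := fun h' => hj M (by omega) h'.symm
      rw [Function.update_of_ne hne, Function.update_of_ne hne]
      exact h4 j fun s hs => hj s (by omega)
    · intro a b hab hb hal hc e he he'
      have haM : a ≠ M := by omega
      rw [Function.update_of_ne haM]
      by_cases hbM : b = M
      · subst hbM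
        simp only [Function.update_self]
        obtain ⟨e1, e2⟩ := h3 a hab hal
        have hadj : (vtGraph B Fr (fun _ => 0)).Adj (zr (seqC b)) (x (seqS a)) := by
          rw [e1]
          exact zr_adj hc.symm he' he
        have hadj' := (hw4 (seqS a)).mp hadj
        rw [e2] at hadj'
        have ha0 := h2 a hab
        have := roots_agree hw2 ha0.1 hadj' (by rw [hw3]; exact he') (by rw [ha0.2]; exact he)
        exact this.symm
      · rw [Function.update_of_ne hbM]
        exact h5 a b hab (by omega) hal hc e he he'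
    · intro b hb j hj c hxc hc e he he'
      by_cases hbM : b = M
      · subst hbM
        simp only [Function.update_self]
        obtain ⟨e1, e2⟩ := h4 j hj
        have hadj : (vtGraph B Fr (fun _ => 0)).Adj (zr (seqC b)) (x j) := by
          rw [e1, hxc]
          exact zr_adj hc.symm he' he
        have hadj' := (hw4 j).mp hadj
        have hx0 : (x j).1.2.val = 0 := by rw [e1, hxc]; rfl
        have hcl : (x j).1.1.1 = c := by rw [e1, hxc]; rfl
        have hy := slot_root hd h1 j hx0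
        rw [e2] at hadj' hy
        have := roots_agree hw2 hy.1 hadj' (by rw [hw3]; exact he')
          (by rw [hy.2, hcl]; exact he)
        exact this.symm
      · rw [Function.update_of_ne hbM]
        exact h6 b (by omega) j hj c hxc hc e he he'

end Generic

end Vale.Agent.Lib.P310
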