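import Vale.Agent.Lib.P310.Sat

set_option linter.unusedSectionVars false

namespace Vale.Agent.Lib.P310

open Finset

section Generic

variable {BV Pr : Type} [Fintype BV] [DecidableEq BV] [Fintype Pr] [DecidableEq Pr]
variable {B : SimpleGraph BV} [DecidableRel B.Adj] {Fr : Pr → Finset (Sym2 BV)}

/-- A classwise translation gives a bijection of vertex sets. -/
noncomputable def vtEquiv {t t' : BV → ZMod 2} (φ : BV ⊕ Pr → Sym2 BV → ZMod 2)
    (h : ∀ v, t' v = t v + bd B (φ (Sum.inl v)) v) : VT B Fr t ≃ VT B Fr t' where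
  toFun a := ⟨trA B Fr (φ a.1.1.1) a.1,
    parity_trN B Fr t t' _ _ (fun v hv => by rw [hv]; exact h v) a.2.1, a.2.2⟩
  invFun b := ⟨trA B Fr (φ b.1.1.1) b.1,
    parity_trN B Fr t' t _ _ (fun v hv => by rw [hv, h v, zmod2_add_add_self]) b.2.1, b.2.2⟩
  left_inv a := Subtype.ext (trA_trA B Fr _ a.1)
  right_inv b := Subtype.ext (trA_trA B Fr _ b.1)

lemma card_VT_le (t : BV → ZMod 2) :
    Fintype.card (VT B Fr t) ≤ Fintype.card (Node B Fr) * (pendMax B Fr + 1) := by
  have h := Fintype.card_le_of_injective (fun a : VT B Fr t => a.1) Subtype.val_injective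
  simpa [Fintype.card_prod] using h

lemma card_Node :
    Fintype.card (Node B Fr) = ∑ c : BV ⊕ Pr, 2 ^ (edgesOf B Fr c).card := by
  rw [Fintype.card_sigma]
  apply Finset.sum_congr rfl
  intro c _
  rw [Fintype.card_fun, ZMod.card, Fintype.card_coe]

end Generic

section Thick

variable {ℓ m : ℕ} {Pr : Type} [Fintype Pr] [DecidableEq Pr]

lemma card_VT_twist (hℓ : 0 < ℓ) (Fr : Pr → Finset (Sym2 (BaseV ℓ m))) :
    Fintype.card (VT (thick ℓ m) Fr (fun _ => 0)) =
      Fintype.card (VT (thick ℓ m) Fr (twist ℓ m)) := by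
  let u₀ : BaseV ℓ m := (true, ⟨0, hℓ⟩, 0)
  have hadj : (thick ℓ m).Adj (v₀ hℓ) u₀ := Or.inr (Or.inr ⟨by simp [v₀, u₀], rfl, rfl, rfl⟩)
  let φ : BaseV ℓ m ⊕ Pr → Sym2 (BaseV ℓ m) → ZMod 2 := fun c e =>
    if c = Sum.inl (v₀ hℓ) ∧ e = s(v₀ hℓ, u₀) then 1 else 0
  refine Fintype.card_congr (vtEquiv φ fun v => ?_)
  rw [twist_eq hℓ, zero_add]
  by_cases hv : v = v₀ hℓ
  · subst hv
    have : φ (Sum.inl (v₀ hℓ)) = fun e => if e = s(v₀ hℓ, u₀) then 1 else 0 := by
      funext e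
      simp [φ]
    rw [this, bd_single (thick ℓ m) hadj, if_pos rfl, if_neg hadj.ne, add_zero]
  · have : φ (Sum.inl v) = fun _ => 0 := by
      funext e
      simp [φ, hv]
    rw [this, if_neg hv]
    unfold bd
    simp

/-- At most `m + 4` neighbors in the base graph. -/
lemma card_neighbors_thick (v : BaseV ℓ m) : ((thick ℓ m).neighborFinset v).card ≤ m + 4 := by
  classical
  obtain ⟨D, c, i⟩ := v
  let φ : BaseV ℓ m → Fin (m + 1) ⊕ Fin 3 := fun u =>
    if u.1 ≠ D then Sum.inr 2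
    else if u.2.1 = c then Sum.inl u.2.2
    else if u.2.1.val + 1 = c.val then Sum.inr 0 else Sum.inr 1
  have h1 : ((thick ℓ m).neighborFinset (D, c, i)).card ≤
      (univ : Finset (Fin (m + 1) ⊕ Fin 3)).card := by
    apply Finset.card_le_card_of_injOn φ (fun _ _ => by simp)
    rintro ⟨D₁, c₁, i₁⟩ hu ⟨D₂, c₂, i₂⟩ hv hφ
    have hu' := (SimpleGraph.mem_neighborFinset _ _ _).mp (mem_coe.mp hu)
    have hv' := (SimpleGraph.mem_neighborFinset _ _ _).mp (mem_coe.mp hv)
    simp only [φ] at hφ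
    -- analyse the neighbors
    have hu2 : (D₁ = D ∧ c₁ = c) ∨ (D₁ = D ∧ i₁ = i ∧ (c.val + 1 = c₁.val ∨ c₁.val + 1 = c.val)) ∨
        (D₁ ≠ D ∧ c₁ = c ∧ i₁ = 0) := by
      rcases hu' with ⟨h1, h2, -⟩ | ⟨h1, h2, h3⟩ | ⟨h1, h2, -, h4⟩
      · exact Or.inl ⟨h1.symm, h2.symm⟩
      · exact Or.inr (Or.inl ⟨h1.symm, h2.symm, h3⟩)
      · exact Or.inr (Or.inr ⟨fun h => h1 h.symm, h2.symm, h4⟩)
    have hv2 : (D₂ = D ∧ c₂ = c) ∨ (D₂ = D ∧ i₂ = i ∧ (c.val + 1 = c₂.val ∨ c₂.val + 1 = c.val)) ∨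
        (D₂ ≠ D ∧ c₂ = c ∧ i₂ = 0) := by
      rcases hv' with ⟨h1, h2, -⟩ | ⟨h1, h2, h3⟩ | ⟨h1, h2, -, h4⟩
      · exact Or.inl ⟨h1.symm, h2.symm⟩
      · exact Or.inr (Or.inl ⟨h1.symm, h2.symm, h3⟩)
      · exact Or.inr (Or.inr ⟨fun h => h1 h.symm, h2.symm, h4⟩)
    have hcne : ∀ c' : Fin ℓ, (c.val + 1 = c'.val ∨ c'.val + 1 = c.val) → c' ≠ c := by
      intro c' h h'
      subst h'
      omega
    rcases hu2 with ⟨e1, e2⟩ | ⟨e1, e2, e3⟩ | ⟨e1, e2, e3⟩ <;>
    rcases hv2 with ⟨f1, f2⟩ | ⟨f1, f2, f3⟩ | ⟨f1, f2, f3⟩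
    · simp only [e1, f1, e2, f2, ne_eq, not_true_eq_false, if_false, if_true] at hφ
      subst e1 f1 e2 f2
      rw [Sum.inl.inj hφ]
    · have := hcne c₂ f3
      simp only [e1, f1, e2, ne_eq, not_true_eq_false, if_false, if_true, if_neg this] at hφ
      split_ifs at hφ
    · simp only [e1, e2, f1, ne_eq, not_true_eq_false, if_false, if_true, not_false_eq_true] at hφ
      simp at hφ
    · have := hcne c₁ e3
      simp only [e1, f1, f2, ne_eq, not_true_eq_false, if_false, if_true, if_neg this] at hφ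
      split_ifs at hφ
    · have h1 := hcne c₁ e3
      have h2 := hcne c₂ f3
      simp only [e1, f1, ne_eq, not_true_eq_false, if_false, if_neg h1, if_neg h2] at hφ
      subst e1 f1 e2 f2
      have hval : c₁.val = c₂.val := by
        by_cases a1 : c₁.val + 1 = c.val <;> by_cases a2 : c₂.val + 1 = c.val
        · omega
        · simp [a1, a2] at hφ
        · simp [a1, a2] at hφ
        · omega
      rw [Fin.ext hval]
    · have h1 := hcne c₁ e3
      simp only [e1, f1, ne_eq, not_true_eq_false, if_false, if_neg h1, not_false_eq_true,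
        if_true] at hφ
      split_ifs at hφ <;> simp at hφ
    · simp only [e1, f1, f2, ne_eq, not_true_eq_false, if_false, if_true, not_false_eq_true] at hφ
      simp at hφ
    · have h2 := hcne c₂ f3
      simp only [e1, f1, ne_eq, not_true_eq_false, if_false, if_neg h2, not_false_eq_true,
        if_true] at hφ
      split_ifs at hφ <;> simp at hφ
    · have hD : D₁ = D₂ := by
        cases D₁ <;> cases D₂ <;> cases D <;> simp_all
      rw [hD, e2, f2, e3, f3]
  simpa using h1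

lemma card_edges_inl (Fr : Pr → Finset (Sym2 (BaseV ℓ m))) (v : BaseV ℓ m) :
    (edgesOf (thick ℓ m) Fr (Sum.inl v)).card ≤ m + 4 :=
  card_image_le.trans (card_neighbors_thick v)

end Thick

section Cnf

variable {Var ι : Type} [Fintype Var] [DecidableEq Var] [Fintype ι] [DecidableEq ι] {k : ℕ}
variable (cl : ι → Finset (Var × Bool)) (bl : Var → Fin k)

lemma card_frLabel_le {b : ℕ}
    (hcl : ∀ i, (univ.filter fun C => ∃ l ∈ cl C, bl l.1 = i).card ≤ b) (p : Probe bl) :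
    (frLabel cl bl p).card ≤ 4 * b + 2 * k + 4 := by
  classical
  unfold frLabel
  rw [card_disjSum]
  have h1 : (univ.filter fun q : ι × Bool × Fin 4 =>
      q.2.1 = p.1.2 ∧ ∃ l ∈ cl q.1, ∃ h : bl l.1 = p.1.1, p.2 ⟨l.1, h⟩ = l.2).card ≤ 4 * b := by
    have hsub : (univ.filter fun q : ι × Bool × Fin 4 =>
        q.2.1 = p.1.2 ∧ ∃ l ∈ cl q.1, ∃ h : bl l.1 = p.1.1, p.2 ⟨l.1, h⟩ = l.2) ⊆
        ((univ.filter fun C => ∃ l ∈ cl C, bl l.1 = p.1.1) ×ˢ (univ : Finset (Fin 4))).image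
          fun x => (x.1, p.1.2, x.2) := by
      rintro ⟨C, b', r⟩ hq
      obtain ⟨-, hb', l, hl, h, -⟩ := mem_filter.mp hq
      simp only at hb' hl
      refine mem_image.mpr ⟨(C, r), ?_, by simp [hb']⟩
      simp only [mem_product, mem_filter, mem_univ, true_and, and_true]
      exact ⟨l, hl, h⟩
    refine (card_le_card hsub).trans (card_image_le.trans ?_)
    rw [card_product]
    simp only [card_univ, Fintype.card_fin]
    have := hcl p.1.1
    omega
  have h2 : (univ.filter fun q : Fin k × Bool × Fin (2 * k + 4) =>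
      q.1 = p.1.1 ∧ q.2.1 = p.1.2).card ≤ 2 * k + 4 := by
    have hsub : (univ.filter fun q : Fin k × Bool × Fin (2 * k + 4) =>
        q.1 = p.1.1 ∧ q.2.1 = p.1.2) ⊆
        (univ : Finset (Fin (2 * k + 4))).image fun r => (p.1.1, p.1.2, r) := by
      rintro ⟨i, b', r⟩ hq
      obtain ⟨-, h1, h2⟩ := mem_filter.mp hq
      simp only at h1 h2
      exact mem_image.mpr ⟨r, mem_univ _, by simp [h1, h2]⟩
    refine (card_le_card hsub).trans (card_image_le.trans ?_)
    simp
  calc _ ≤ 4 * b + (2 * k + 4) := Nat.add_le_add h1 h2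
    _ = _ := by omega

lemma card_edges_inr (m : ℕ) {b : ℕ}
    (hcl : ∀ i, (univ.filter fun C => ∃ l ∈ cl C, bl l.1 = i).card ≤ b) (p : Probe bl) :
    (edgesOf (thick (Fintype.card (RungLabel ι k)) m) (frEdges m (frCols cl bl))
      (Sum.inr p)).card ≤ 4 * b + 2 * k + 4 := by
  change ((frCols cl bl p).image (rung m)).card ≤ _
  refine card_image_le.trans ?_
  unfold frCols
  rw [card_map]
  exact card_frLabel_le cl bl hcl p

lemma card_label : Fintype.card (RungLabel ι k) = 8 * Fintype.card ι + 2 * k * (2 * k + 4) := by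
  simp only [Fintype.card_sum, Fintype.card_prod, Fintype.card_bool, Fintype.card_fin]
  ring

lemma card_probe_le {b : ℕ} (hv : ∀ i, Fintype.card {v // bl v = i} ≤ b) :
    Fintype.card (Probe bl) ≤ 2 * k * 2 ^ b := by
  rw [Fintype.card_sigma]
  have h1 : ∀ i : Fin k × Bool, Fintype.card ({v // bl v = i.1} → Bool) ≤ 2 ^ b := by
    intro i
    rw [Fintype.card_fun, Fintype.card_bool]
    exact Nat.pow_le_pow_right (by omega) (hv i.1)
  calc ∑ i : Fin k × Bool, Fintype.card ({v // bl v = i.1} → Bool)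
      ≤ ∑ _i : Fin k × Bool, 2 ^ b := Finset.sum_le_sum fun i _ => h1 i
    _ = 2 * k * 2 ^ b := by
        simp [Fintype.card_prod, Nat.mul_comm]

theorem card_src_le (m : ℕ) {b : ℕ} (hv : ∀ i, Fintype.card {v // bl v = i} ≤ b)
    (hcl : ∀ i, (univ.filter fun C => ∃ l ∈ cl C, bl l.1 = i).card ≤ b) :
    ∀ t, Fintype.card (VT (thick (Fintype.card (RungLabel ι k)) m) (frEdges m (frCols cl bl)) t) ≤
      sizeBound (Fintype.card ι) k m b := by
  set ℓ := Fintype.card (RungLabel ι k) with hℓ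
  intro t
  set A := 2 * (8 * Fintype.card ι + 2 * k * (2 * k + 4)) * (m + 1) with hA
  set P := 2 * k * 2 ^ b with hP
  set N := A * 2 ^ (m + 4) + P * 2 ^ (4 * b + 2 * k + 4) with hN
  have hBV : Fintype.card (BaseV ℓ m) = A := by
    rw [hA, ← card_label (ι := ι) (k := k)]
    simp only [Fintype.card_prod, Fintype.card_bool, Fintype.card_fin, hℓ]
    ring
  have hPr := card_probe_le bl hv
  have hNode : Fintype.card (Node (thick ℓ m) (frEdges m (frCols cl bl))) ≤ N := by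
    rw [card_Node, Fintype.sum_sum_type]
    apply Nat.add_le_add
    · calc ∑ v : BaseV ℓ m, 2 ^ (edgesOf (thick ℓ m) (frEdges m (frCols cl bl)) (Sum.inl v)).card
          ≤ ∑ _v : BaseV ℓ m, 2 ^ (m + 4) := Finset.sum_le_sum fun v _ =>
            Nat.pow_le_pow_right (by omega) (card_edges_inl _ v)
        _ = A * 2 ^ (m + 4) := by rw [Finset.sum_const, card_univ, hBV, smul_eq_mul]
    · calc ∑ p : Probe bl, 2 ^ (edgesOf (thick ℓ m) (frEdges m (frCols cl bl)) (Sum.inr p)).card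
          ≤ ∑ _p : Probe bl, 2 ^ (4 * b + 2 * k + 4) := Finset.sum_le_sum fun p _ =>
            Nat.pow_le_pow_right (by omega) (card_edges_inr cl bl m hcl p)
        _ = Fintype.card (Probe bl) * 2 ^ (4 * b + 2 * k + 4) := by
            rw [Finset.sum_const, card_univ, smul_eq_mul]
        _ ≤ P * 2 ^ (4 * b + 2 * k + 4) := Nat.mul_le_mul_right _ hPr
  have hCl : Fintype.card (BaseV ℓ m ⊕ Probe bl) ≤ A + P := by
    rw [Fintype.card_sum, hBV]
    omega
  have hgoal : sizeBound (Fintype.card ι) k m b = N * ((A + P) * (N + 2) + 1) := rfl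
  rw [hgoal]
  refine (card_VT_le t).trans (Nat.mul_le_mul hNode (Nat.add_le_add_right ?_ 1))
  unfold pendMax
  exact Nat.mul_le_mul hCl (Nat.add_le_add_right hNode 2)

end Cnf

end Vale.Agent.Lib.P310
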