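import Vale.Agent.Lib.P310.Sched

set_option linter.unusedSectionVars false

namespace Vale.Agent.Lib.P310

open Finset

section Generic

variable {BV Pr : Type} [Fintype BV] [DecidableEq BV] [Fintype Pr] [DecidableEq Pr]
variable {B : SimpleGraph BV} [DecidableRel B.Adj] {Fr : Pr → Finset (Sym2 BV)}

lemma parity_sum {t : BV → ZMod 2} {u : Node B Fr} {v : BV} (hu : u.1 = Sum.inl v)
    (hp : parityOK B Fr t u) : ∑ w ∈ B.neighborFinset v, ext u s(v, w) = t v := by
  obtain ⟨c, σ⟩ := u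
  simp only at hu
  subst hu
  have h1 : ∑ e, σ e = t v := hp
  rw [← sum_edges_inl B Fr v (ext ⟨Sum.inl v, σ⟩), ← h1]
  apply Finset.sum_congr rfl
  intro e _
  unfold ext
  rw [dif_pos e.2]

lemma mem_edges_inl {v w : BV} (h : B.Adj v w) : s(v, w) ∈ edgesOf B Fr (Sum.inl v) := by
  change s(v, w) ∈ (B.neighborFinset v).image fun u => s(v, u)
  exact mem_image.mpr ⟨w, (SimpleGraph.mem_neighborFinset B v w).mpr h, rfl⟩

end Generic

lemma sum_sum_symm_eq_zero {P : Type} [Fintype P] [DecidableEq P] (F : P → P → ZMod 2)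
    (hsymm : ∀ p q, F p q = F q p) (hdiag : ∀ p, F p p = 0) :
    ∑ p, ∑ q, F p q = 0 := by
  rw [← Finset.sum_product']
  refine Finset.sum_involution (fun a _ => (a.2, a.1)) ?_ ?_ ?_ ?_
  · intro a _
    rw [hsymm a.1 a.2]
    exact zmod2_add_self _
  · intro a _ hne heq
    have h1 : a.2 = a.1 := congrArg Prod.fst heq
    apply hne
    rw [h1]
    exact hdiag _
  · intro a _
    simp
  · intro a _
    rfl

section Thick

variable {ℓ m : ℕ}

/-- The sweep index of a position. -/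
def sweepIdx (m : ℕ) (p : Fin ℓ × Fin (m + 1)) : ℕ := p.2.val + p.1.val * (m + 1)

lemma sweepIdx_lt (p : Fin ℓ × Fin (m + 1)) : sweepIdx m p < ℓ * (m + 1) := by
  unfold sweepIdx
  have h1 := p.1.isLt
  have h2 := p.2.isLt
  have : (p.1.val + 1) * (m + 1) ≤ ℓ * (m + 1) := Nat.mul_le_mul_right _ h1
  have e : (p.1.val + 1) * (m + 1) = p.1.val * (m + 1) + (m + 1) := by ring
  omega

/-- The position visited at step `s`. -/
def vAt (hℓ : 0 < ℓ) (D : Bool) (s : ℕ) : BaseV ℓ m :=
  (D, ⟨s / (m + 1) % ℓ, Nat.mod_lt _ hℓ⟩, ⟨s % (m + 1), Nat.mod_lt _ (Nat.succ_pos _)⟩)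

lemma vAt_sweepIdx (hℓ : 0 < ℓ) (D : Bool) (p : Fin ℓ × Fin (m + 1)) :
    vAt hℓ D (sweepIdx m p) = (D, p) := by
  obtain ⟨c, i⟩ := p
  unfold vAt sweepIdx
  have h1 : (i.val + c.val * (m + 1)) / (m + 1) = c.val := by
    rw [Nat.add_mul_div_right _ _ (Nat.succ_pos m), Nat.div_eq_of_lt i.isLt, zero_add]
  have h2 : (i.val + c.val * (m + 1)) % (m + 1) = i.val := by
    rw [Nat.add_mul_mod_self_right, Nat.mod_eq_of_lt i.isLt]
  simp only [Prod.mk.injEq, true_and]
  constructor
  · apply Fin.ext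
    simp only
    rw [h1, Nat.mod_eq_of_lt c.isLt]
  · apply Fin.ext
    simp only
    exact h2

lemma mod_ne_of_close {a s n : ℕ} (h1 : a < s) (h2 : s < a + n) : s % n ≠ a % n := by
  intro h
  have h3 := Nat.sub_mod_eq_zero_of_mod_eq h
  have h4 : s - a < n := by omega
  rw [Nat.mod_eq_of_lt h4] at h3
  omega

/-- Adjacent vertices of one side are at most `m + 1` steps apart. -/
lemma sweepIdx_close {D : Bool} {p q : Fin ℓ × Fin (m + 1)}
    (h : (thick ℓ m).Adj (D, p) (D, q)) :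
    sweepIdx m p ≠ sweepIdx m q ∧ sweepIdx m p ≤ sweepIdx m q + (m + 1) ∧
      sweepIdx m q ≤ sweepIdx m p + (m + 1) := by
  obtain ⟨c, i⟩ := p
  obtain ⟨c', i'⟩ := q
  unfold sweepIdx
  simp only
  have hi := i.isLt
  have hi' := i'.isLt
  rcases h with ⟨-, h2, h3⟩ | ⟨-, h2, h3⟩ | ⟨h1, -⟩
  · simp only at h2 h3
    subst h2
    have hne : i.val ≠ i'.val := fun h => h3 (Fin.ext h)
    omega
  · simp only at h2 h3
    subst h2
    rcases h3 with h3 | h3
    · rw [← h3, Nat.add_mul]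
      omega
    · rw [← h3, Nat.add_mul]
      omega
  · exact absurd rfl h1

variable {Pr : Type} [Fintype Pr] [DecidableEq Pr] (FrC : Pr → Finset (Fin ℓ))

lemma mem_edges_rung {D : Bool} {c : Fin ℓ} :
    rung m c ∈ edgesOf (thick ℓ m) (frEdges m FrC) (Sum.inl (D, c, 0)) := by
  have hadj : (thick ℓ m).Adj (D, c, 0) (!D, c, 0) :=
    Or.inr (Or.inr ⟨by simp, rfl, rfl, rfl⟩)
  have := mem_edges_inl (Fr := frEdges m FrC) hadj
  cases D with
  | false => exact this
  | true =>
    unfold rung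
    rw [Sym2.eq_swap]
    exact this

lemma mem_edges_probe {p : Pr} {c : Fin ℓ} (hc : c ∈ FrC p) :
    rung m c ∈ edgesOf (thick ℓ m) (frEdges m FrC) (Sum.inr p) :=
  mem_image.mpr ⟨c, hc, rfl⟩

/-- Neighbor sums split into same side neighbors and the rung. -/
lemma sum_neighbors (D : Bool) (p : Fin ℓ × Fin (m + 1)) (F : BaseV ℓ m → ZMod 2) :
    ∑ u ∈ (thick ℓ m).neighborFinset (D, p), F u =
      (∑ q, if (thick ℓ m).Adj (D, p) (D, q) then F (D, q) else 0) +
        (if p.2 = 0 then F (!D, p.1, 0) else 0) := by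
  classical
  rw [SimpleGraph.neighborFinset_eq_filter, Finset.sum_filter, Fintype.sum_prod_type]
  have hcross : (∑ q, if (thick ℓ m).Adj (D, p) (!D, q) then F (!D, q) else 0) =
      if p.2 = 0 then F (!D, p.1, 0) else 0 := by
    have hadj : ∀ q : Fin ℓ × Fin (m + 1), (thick ℓ m).Adj (D, p) (!D, q) ↔
        p.1 = q.1 ∧ p.2 = 0 ∧ q.2 = 0 := by
      intro q
      constructor
      · rintro (⟨h, -⟩ | ⟨h, -⟩ | ⟨-, h⟩)
        · simp at h
        · simp at h
        · exact h
      · intro h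
        exact Or.inr (Or.inr ⟨by simp, h⟩)
    by_cases hp : p.2 = 0
    · rw [if_pos hp, Finset.sum_eq_single (p.1, 0)]
      · rw [if_pos ((hadj (p.1, 0)).mpr ⟨rfl, hp, rfl⟩)]
      · intro q _ hq
        rw [if_neg]
        intro h
        obtain ⟨h1, -, h3⟩ := (hadj q).mp h
        exact hq (Prod.ext h1.symm h3)
      · intro h
        exact absurd (mem_univ _) h
    · rw [if_neg hp]
      apply Finset.sum_eq_zero
      intro q _
      rw [if_neg]
      intro h
      exact hp ((hadj q).mp h).2.1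
  cases D with
  | false =>
    rw [Fintype.sum_bool, add_comm]
    congr 1
  | true =>
    rw [Fintype.sum_bool]
    congr 1

variable {FrC}

/-- The final parity count of a sweep. -/
lemma sweep_count (D : Bool) (t' : BaseV ℓ m → ZMod 2) (ρ : Fin ℓ → ZMod 2)
    (z : ℕ → VT (thick ℓ m) (frEdges m FrC) t')
    (hz : ∀ p, (z (sweepIdx m p)).1.1.1 = Sum.inl (D, p))
    (hpair : ∀ p q, (thick ℓ m).Adj (D, p) (D, q) →
      ext (z (sweepIdx m p)).1.1 s((D, p), (D, q)) = ext (z (sweepIdx m q)).1.1 s((D, p), (D, q)))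
    (hrung : ∀ c, ext (z (sweepIdx m (c, 0))).1.1 (rung m c) = ρ c) :
    ∑ p, t' (D, p) = ∑ c, ρ c := by
  classical
  have h1 : ∀ p, t' (D, p) =
      ∑ u ∈ (thick ℓ m).neighborFinset (D, p), ext (z (sweepIdx m p)).1.1 s((D, p), u) := by
    intro p
    exact (parity_sum (hz p) (z (sweepIdx m p)).2.1).symm
  have hr : ∀ p : Fin ℓ × Fin (m + 1),
      (if p.2 = 0 then ext (z (sweepIdx m p)).1.1 s((D, p), (!D, p.1, 0)) else 0) =
        if p.2 = 0 then ρ p.1 else 0 := by
    rintro ⟨c, i⟩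
    by_cases hi : i = 0
    · subst hi
      simp only [if_true]
      rw [← hrung c]
      congr 1
      cases D with
      | false => rfl
      | true =>
        unfold rung
        exact Sym2.eq_swap
    · simp [hi]
  calc ∑ p, t' (D, p)
      = ∑ p, ((∑ q, if (thick ℓ m).Adj (D, p) (D, q) then
              ext (z (sweepIdx m p)).1.1 s((D, p), (D, q)) else 0) +
            (if p.2 = 0 then ρ p.1 else 0)) := by
        apply Finset.sum_congr rfl
        intro p _
        rw [h1 p, sum_neighbors, hr]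
    _ = (∑ p, ∑ q, if (thick ℓ m).Adj (D, p) (D, q) then
              ext (z (sweepIdx m p)).1.1 s((D, p), (D, q)) else 0) +
          ∑ p : Fin ℓ × Fin (m + 1), (if p.2 = 0 then ρ p.1 else 0) := Finset.sum_add_distrib
    _ = 0 + ∑ p : Fin ℓ × Fin (m + 1), (if p.2 = 0 then ρ p.1 else 0) := by
        congr 1
        apply sum_sum_symm_eq_zero
        · intro p q
          by_cases hadj : (thick ℓ m).Adj (D, p) (D, q)
          · rw [if_pos hadj, if_pos hadj.symm, hpair p q hadj, Sym2.eq_swap]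
          · rw [if_neg hadj, if_neg fun h => hadj h.symm]
        · intro p
          rw [if_neg ((thick ℓ m).loopless.irrefl _)]
    _ = ∑ c, ρ c := by
        rw [zero_add, Fintype.sum_prod_type]
        apply Finset.sum_congr rfl
        intro c _
        rw [Finset.sum_eq_single 0]
        · simp
        · intro i _ hi
          simp [hi]
        · intro h
          exact absurd (mem_univ _) h

lemma twist_sum_true : ∑ p, twist ℓ m (true, p) = 0 := by
  apply Finset.sum_eq_zero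
  intro p _
  unfold twist
  simp

lemma twist_sum_false (hℓ : 0 < ℓ) : ∑ p, twist ℓ m (false, p) = 1 := by
  rw [Finset.sum_eq_single ((⟨0, hℓ⟩, 0) : Fin ℓ × Fin (m + 1))]
  · unfold twist
    simp
  · rintro ⟨c, i⟩ _ hne
    unfold twist
    rw [if_neg]
    rintro ⟨-, h2, h3⟩
    apply hne
    simp only at h2 h3
    rw [h3]
    congr 1
    exact Fin.ext h2
  · intro h
    exact absurd (mem_univ _) h

variable (FrC)

/-- The yes case: a cover by `K` probes makes the two graphs WL inequivalent. -/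
theorem yes_case {K : ℕ} (hℓ : 0 < ℓ) (hd : 2 ≤ K + m + 1) (s : Fin K → Pr)
    (hs : ∀ c, ∃ i, c ∈ FrC (s i)) :
    ¬ WLEquiv (K + m + 1) (vtGraph (thick ℓ m) (frEdges m FrC) (fun _ => 0))
      (vtGraph (thick ℓ m) (frEdges m FrC) (twist ℓ m)) := by
  intro hE
  classical
  set B := thick ℓ m with hB
  set Fr := frEdges (ℓ := ℓ) m FrC with hFr
  have hdpos : 0 < K + m + 1 := by omega
  let ps : ℕ → Fin (K + m + 1) := fun t => ⟨t % (K + m + 1), Nat.mod_lt _ hdpos⟩
  let ls : ℕ → Fin (K + m + 1) := fun t => ⟨K + t % (m + 1), by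
    have : t % (m + 1) < m + 1 := Nat.mod_lt _ (Nat.succ_pos m)
    omega⟩
  let seqC₁ : ℕ → BaseV ℓ m ⊕ Pr := fun t =>
    if h : t < K then Sum.inr (s ⟨t, h⟩) else Sum.inl (v₀ hℓ)
  let R : ℕ := (K + 2) + (ℓ * (m + 1) + 2)
  let x₀ : Fin (K + m + 1) → VT B Fr (fun _ => 0) := fun _ => zr (Sum.inl (v₀ hℓ))
  obtain ⟨y₀, hy₀⟩ := exists_of_wlEquiv hE R x₀
  -- phase 1: the probes
  obtain ⟨x₁, y₁, z₁, h1, -, h3, -, -, -⟩ :=
    schedule hd (twist ℓ m) seqC₁ ps x₀ y₀ R K (by simp only [R]; omega) hy₀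
  have hps : ∀ a, a < K → (ps a).val = a := by
    intro a ha
    simp only [ps]
    exact Nat.mod_eq_of_lt (by omega)
  have hx₁ : ∀ a (ha : a < K), x₁ (ps a) = zr (Sum.inr (s ⟨a, ha⟩)) := by
    intro a ha
    have := (h3 a ha (fun t ht1 ht2 h => ?_)).1
    · rw [this]
      simp only [seqC₁, dif_pos ha]
    · have := congrArg Fin.val h
      rw [hps t ht2, hps a ha] at this
      omega
  choose idx hidx using hs
  let ρ : Fin ℓ → ZMod 2 := fun c => ext (y₁ (ps (idx c).val)).1.1 (rung m c)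
  -- choice of the side
  let D : Bool := if ∑ c, ρ c = 0 then false else true
  let seqC₂ : ℕ → BaseV ℓ m ⊕ Pr := fun t => Sum.inl (vAt hℓ D t)
  let R₁ : ℕ := R - K
  have hR₁ : ℓ * (m + 1) + 2 ≤ R₁ := by
    simp only [R₁, R]
    omega
  obtain ⟨-, -, z, -, h2', -, -, h5', h6'⟩ :=
    schedule hd (twist ℓ m) seqC₂ ls x₁ y₁ R₁ (ℓ * (m + 1)) hR₁ h1
  have hzcl : ∀ p, (z (sweepIdx m p)).1.1.1 = Sum.inl (D, p) := by
    intro p
    rw [(h2' _ (sweepIdx_lt p)).2]
    simp only [seqC₂]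
    rw [vAt_sweepIdx]
  have hls : ∀ t, (ls t).val = K + t % (m + 1) := fun t => rfl
  have hali : ∀ a b, b ≤ a + (m + 1) → Alive ls a b := by
    intro a b hb t ht1 ht2 h
    have := congrArg Fin.val h
    rw [hls, hls] at this
    exact mod_ne_of_close (n := m + 1) ht1 (by omega) (by omega)
  have hpair : ∀ p q, (thick ℓ m).Adj (D, p) (D, q) →
      ext (z (sweepIdx m p)).1.1 s((D, p), (D, q)) =
        ext (z (sweepIdx m q)).1.1 s((D, p), (D, q)) := by
    intro p q hadj
    obtain ⟨hne, hle1, hle2⟩ := sweepIdx_close hadj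
    have hne' : (D, p) ≠ (D, q) := hadj.ne
    have ea : ∀ a : Fin ℓ × Fin (m + 1), seqC₂ (sweepIdx m a) = Sum.inl (D, a) := by
      intro a
      simp only [seqC₂]
      rw [vAt_sweepIdx]
    rcases lt_or_gt_of_ne hne with hlt | hlt
    · refine h5' _ _ hlt (sweepIdx_lt q) (hali _ _ hle2) ?_ _ ?_ ?_
      · rw [ea, ea]
        exact fun h => hne' (Sum.inl.inj h)
      · rw [ea]
        exact mem_edges_inl hadj
      · rw [ea, Sym2.eq_swap]
        exact mem_edges_inl hadj.symm
    · refine (h5' _ _ hlt (sweepIdx_lt p) (hali _ _ hle1) ?_ _ ?_ ?_).symm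
      · rw [ea, ea]
        exact fun h => hne' (Sum.inl.inj h).symm
      · rw [ea, Sym2.eq_swap]
        exact mem_edges_inl hadj.symm
      · rw [ea]
        exact mem_edges_inl hadj
  have hrung : ∀ c, ext (z (sweepIdx m (c, 0))).1.1 (rung m c) = ρ c := by
    intro c
    have hlt := (idx c).isLt
    refine (h6' (sweepIdx m (c, 0)) (sweepIdx_lt _) (ps (idx c).val) ?_ (Sum.inr (s (idx c))) ?_
      ?_ (rung m c) (mem_edges_probe FrC (hidx c)) ?_).symm
    · intro t _ h
      have := congrArg Fin.val h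
      rw [hls, hps _ hlt] at this
      omega
    · exact hx₁ _ hlt
    · simp [seqC₂]
    · simp only [seqC₂]
      rw [vAt_sweepIdx]
      exact mem_edges_rung FrC
  have hcount := sweep_count D (twist ℓ m) ρ z hzcl hpair hrung
  by_cases hS : ∑ c, ρ c = 0
  · have hD : D = false := by simp only [D, if_pos hS]
    rw [hD, twist_sum_false hℓ, hS] at hcount
    exact one_ne_zero hcount
  · have hD : D = true := by simp only [D, if_neg hS]
    rw [hD, twist_sum_true] at hcount
    exact hS hcount.symm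

end Thick

end Vale.Agent.Lib.P310
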